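import Vale.Agent.P345.Converse

namespace Vale.Agent.Results.P345.PowerRelation

open Vale.Agent.P345

/-- (1) Sandwich criterion: let `J` be any set of pairs `(a, c)` that contains every `(a, a ^ k)`
with `k < a` and in which `c` is always a power of `a`. If `J` has a single-fold (finite-fold)
Diophantine representation, then every set with a single-fold (finite-fold) exponential Diophantine
representation has a single-fold (finite-fold) Diophantine representation.
(2), (3) For the relation `c is a power of a` itself this is an equivalence. -/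
theorem result :
    (∀ J : Set (Fin 2 → ℕ),
      (∀ a k : ℕ, k < a → (![a, a ^ k] : Fin 2 → ℕ) ∈ J) →
      (∀ v ∈ J, ∃ k : ℕ, v 1 = v 0 ^ k) →
      (HasSingleFoldRep J →
        ∀ (n : ℕ) (S : Set (Fin n → ℕ)), HasSingleFoldExpRep S → HasSingleFoldRep S) ∧
      (HasFiniteFoldRep J →
        ∀ (n : ℕ) (S : Set (Fin n → ℕ)), HasFiniteFoldExpRep S → HasFiniteFoldRep S)) ∧
    ((∀ (n : ℕ) (S : Set (Fin n → ℕ)), HasSingleFoldExpRep S → HasSingleFoldRep S) ↔
      HasSingleFoldRep powRel) ∧
    ((∀ (n : ℕ) (S : Set (Fin n → ℕ)), HasFiniteFoldExpRep S → HasFiniteFoldRep S) ↔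
      HasFiniteFoldRep powRel) := by
  have hlow : ∀ a k : ℕ, k < a → (![a, a ^ k] : Fin 2 → ℕ) ∈ powRel := fun a k _ => ⟨k, rfl⟩
  refine ⟨fun J h1 h2 => ⟨single_sandwich h1 h2, finite_sandwich h1 h2⟩, ⟨?_, ?_⟩, ⟨?_, ?_⟩⟩
  · exact fun h => h 2 powRel powRel_singleFoldExp
  · exact fun h => single_sandwich hlow (fun _ hv => hv) h
  · exact fun h => h 2 powRel powRel_finiteFoldExp
  · exact fun h => finite_sandwich hlow (fun _ hv => hv) h

end Vale.Agent.Results.P345.PowerRelation
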