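import Vale.Agent.P345W.Full

/-!
# P345: exponentiation is single-fold (finite-fold) Diophantine iff the relation `c is a power of a + 2` is
-/

namespace Vale.Agent.Results.P345.PowerRelationReduction

open Vale.Agent.P345W

/-- The binary relation `∃ k, c = (a + 2) ^ k` (the exponent is not an argument) has a single-fold Diophantine representation
if and only if the full graph of exponentiation `c = b ^ n` has one; the same holds for finite-fold representations. -/
theorem result :
    (HasSingleFold PowRel ↔ HasSingleFold ExpFull) ∧ (HasFiniteFold PowRel ↔ HasFiniteFold ExpFull) :=
  ⟨⟨fun h => full_singleFold (exp_singleFold h), pow_singleFold⟩,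
    ⟨fun h => full_finiteFold (exp_finiteFold h), pow_finiteFold⟩⟩

end Vale.Agent.Results.P345.PowerRelationReduction
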